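import Mathlib
import Crest.Prelude.Def_MilnorK
import Crest.Agent.Helper88.S0010.Lift
import Crest.Agent.Helper71.S0010.LLf
import Crest.Agent.Helper47.S0010.AS1

/-!
# S0010, joint J1: the line lemma for the representative map `lift Θ`

`lineAt_lift`: for a compatible `Θ`, `K^p` infinite, and `f, g ≠ 0` with `lift Θ f`, `lift Θ g`
`p`-independent, the conclusion `LineAt p (lift Θ) m f g` of the line lemma holds for some
`0 < m < p` (helper47's shape).  From helper71's `line_lemma_field` and helper88's `lift` lemmas.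
-/

set_option autoImplicit false
open Crest.NumberTheoryR.MilnorK

namespace Crest.Agent.Helper98.S0010

open Crest.Agent.Helper31.S0010 Crest.Agent.Helper88.S0010

section J1

variable {p : ℕ} [hp : Fact p.Prime] {K L : Type*} [Field K] [Field L] [CharP K p] [CharP L p]

/-- `a / b ∈ F^p` with `a, b ≠ 0` gives `PRel p a b` (helper88's relation). -/
theorem prel_of_div_mem {F : Type*} [Field F] [CharP F p] {a b : F} (ha : a ≠ 0) (hb : b ≠ 0)
    (h : a / b ∈ pPow (L := F) p) : Crest.Agent.Helper88.S0010.PRel p a b := by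
  obtain ⟨d, hd⟩ := (mem_pPow p).1 h
  have hd0 : d ≠ 0 := by
    rintro rfl
    rw [zero_pow hp.out.ne_zero] at hd
    exact div_ne_zero ha hb hd.symm
  refine ⟨d, hd0, ?_⟩
  rw [hd]; field_simp

/-- If `f ∉ F^p`, `c, c' ∈ F^p` and `f + c = e^p * (f + c')` then `c = c'`. -/
theorem eq_of_add_eq_pow_mul {F : Type*} [Field F] [CharP F p] {f c c' e : F}
    (hf : f ∉ pPow (L := F) p) (hc : c ∈ pPow (L := F) p) (hc' : c' ∈ pPow (L := F) p)
    (h : f + c = e ^ p * (f + c')) : c = c' := by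
  by_cases he : e ^ p = 1
  · rw [he, one_mul] at h
    exact add_left_cancel h
  · exfalso
    apply hf
    have h1 : 1 - e ^ p ≠ 0 := sub_ne_zero.2 (Ne.symm he)
    have h2 : f = (e ^ p * c' - c) / (1 - e ^ p) := by
      field_simp
      linear_combination h
    rw [h2]
    exact div_mem (sub_mem (mul_mem (pow_mem_pPow p e) hc') hc)
      (sub_mem (one_mem _) (pow_mem_pPow p e))

theorem lineAt_lift (Θ : KOne K p ≃ₗ[ZMod p] KOne L p) (hΘ : IsCompatible Θ)
    (hinf : (pPow (L := K) p : Set K).Infinite) {f g : K} (hf0 : f ≠ 0) (hg0 : g ≠ 0)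
    (hfg : PIndep p (lift Θ f) (lift Θ g)) :
    ∃ m : ℕ, 0 < m ∧ m < p ∧ Crest.Agent.Helper47.S0010.LineAt p (lift Θ) m f g := by
  classical
  have hfK : f ∉ pPow (L := K) p := fun h => hfg.1 ((lift_mem_pPow_iff Θ hf0).2 h)
  have hgK : g ∉ pPow (L := K) p :=
    fun h => hfg.2 (pPow_le_pAdj p _ ((lift_mem_pPow_iff Θ hg0).2 h))
  have hfc : ∀ c : K, c ∈ pPow (L := K) p → f + c ∉ pPow (L := K) p := by
    intro c hc h
    apply hfK
    have : f = (f + c) - c := by ring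
    rw [this]; exact sub_mem h hc
  have hgc : ∀ c : K, c ∈ pPow (L := K) p → g - c ∉ pPow (L := K) p := by
    intro c hc h
    apply hgK
    have : g = (g - c) + c := by ring
    rw [this]; exact add_mem h hc
  have hfc0 : ∀ c : K, c ∈ pPow (L := K) p → f + c ≠ 0 :=
    fun c hc h => hfc c hc (h ▸ zero_mem _)
  have hgc0 : ∀ c : K, c ∈ pPow (L := K) p → g - c ≠ 0 :=
    fun c hc h => hgc c hc (h ▸ zero_mem _)
  -- `f + g ≠ 0`
  have hfg0 : f + g ≠ 0 := by
    intro h
    apply hfg.2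
    have hgf : g = -f := by linear_combination h
    have hrel : Crest.Agent.Helper88.S0010.PRel p g f := by
      refine ⟨-1, neg_ne_zero.2 one_ne_zero, ?_⟩
      rw [neg_one_pow_char K p, hgf]; ring
    exact ((lift_prel Θ hg0 hrel).mem_pAdj_iff _).2 (self_mem_pAdj p _)
  have hmemφ : ∀ c : K, c ∈ pPow (L := K) p → lift Θ (f + c) ∈ pAdj p (lift Θ f) :=
    fun c hc => lift_add_mem_pAdj Θ hΘ hfK hc
  have hmemγ : ∀ c : K, c ∈ pPow (L := K) p → lift Θ (g - c) ∈ pAdj p (lift Θ g) := by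
    intro c hc
    rw [sub_eq_add_neg]
    exact lift_add_mem_pAdj Θ hΘ hgK (neg_mem hc)
  have : Infinite ↥(pPow (L := K) p) := hinf.to_subtype
  let ι := ↥(pPow (L := K) p)
  let φ : ι → L := fun c => lift Θ (f + (c : K))
  let γ : ι → L := fun c => lift Θ (g - (c : K))
  have hc01 : (0 : ι) ≠ 1 := by
    intro h
    have := congrArg (Subtype.val) h
    exact zero_ne_one this
  have hφ : ∀ c : ι, φ c ∈ pAdj p (lift Θ f) ∧ φ c ∉ pPow (L := L) p :=
    fun c => ⟨hmemφ c c.2, lift_notMem_pPow Θ (hfc c c.2)⟩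
  have hγ : ∀ c : ι, γ c ∈ pAdj p (lift Θ g) ∧ γ c ∉ pPow (L := L) p :=
    fun c => ⟨hmemγ c c.2, lift_notMem_pPow Θ (hgc c c.2)⟩
  have hh : ∀ c : ι, lift Θ (f + g) / φ c ∈ pAdj p (γ c / φ c) := by
    intro c
    have hba : (g - (c : K)) / (f + (c : K)) ∉ pPow (L := K) p := by
      intro hd
      apply hfg.2
      have hrel : Crest.Agent.Helper88.S0010.PRel p (g - (c : K)) (f + (c : K)) :=
        prel_of_div_mem (hgc0 c c.2) (hfc0 c c.2) hd
      have h1 : lift Θ (g - (c : K)) ∈ pAdj p (lift Θ f) :=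
        ((lift_prel Θ (hgc0 c c.2) hrel).mem_pAdj_iff _).2 (hmemφ c c.2)
      have h2 : lift Θ g ∈ pAdj p (lift Θ (g - (c : K))) :=
        exchange p (pPow p) (pow_mem_pPow p) (hmemγ c c.2) (hγ c).2
      exact adj_le (pPow_le_pAdj p _) h1 h2
    have := lift_div_mem_pAdj Θ hΘ (hfc0 c c.2) hba
    have e : f + (c : K) + (g - (c : K)) = f + g := by ring
    rw [e] at this
    exact this
  have hφinj : ∀ c c' : ι, φ c / φ c' ∈ pPow (L := L) p → c = c' := by
    intro c c' h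
    have h1 : Crest.Agent.Helper88.S0010.PRel p (lift Θ (f + (c : K))) (lift Θ (f + (c' : K))) :=
      prel_of_div_mem (lift_ne_zero Θ (hfc0 c c.2)) (lift_ne_zero Θ (hfc0 c' c'.2)) h
    obtain ⟨e, -, he⟩ := (lift_prel_iff Θ (hfc0 c c.2) (hfc0 c' c'.2)).1 h1
    exact Subtype.ext (eq_of_add_eq_pow_mul hfK c.2 c'.2 he)
  have hγinj : ∀ c c' : ι, γ c / γ c' ∈ pPow (L := L) p → c = c' := by
    intro c c' h
    have h1 : Crest.Agent.Helper88.S0010.PRel p (lift Θ (g - (c : K))) (lift Θ (g - (c' : K))) :=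
      prel_of_div_mem (lift_ne_zero Θ (hgc0 c c.2)) (lift_ne_zero Θ (hgc0 c' c'.2)) h
    obtain ⟨e, -, he⟩ := (lift_prel_iff Θ (hgc0 c c.2) (hgc0 c' c'.2)).1 h1
    have he' : g + -(c : K) = e ^ p * (g + -(c' : K)) := by
      rw [← sub_eq_add_neg, ← sub_eq_add_neg]; exact he
    have := eq_of_add_eq_pow_mul hgK (neg_mem c.2) (neg_mem c'.2) he'
    exact Subtype.ext (neg_injective this)
  obtain ⟨m, hm0, hmp, P, -, Q, -, -, -, lam, hlam, -, -, -, hφm, hγm, hhm⟩ :=
    Crest.Agent.Helper71.S0010.line_lemma_field hfg (0 : ι) (1 : ι) hc01 φ γ (lift Θ (f + g))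
      (lift_ne_zero Θ hfg0) hφ hγ hh hφinj hγinj
  refine ⟨m, hm0, hmp, P, Q, fun c => if hc : c ∈ pPow (L := K) p then lam ⟨c, hc⟩ else 0,
    ?_, ?_, hhm⟩
  · intro c hc
    simp only [dif_pos hc]
    exact hlam _
  · intro c hc
    simp only [dif_pos hc]
    exact ⟨hφm ⟨c, hc⟩, hγm ⟨c, hc⟩⟩

end J1

end Crest.Agent.Helper98.S0010
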