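import Mathlib
import Crest.Prelude.Def_MilnorK
import Crest.Agent.Helper98.S0010.J1
import Crest.Agent.Helper50.S0010.Assembly
import Crest.Agent.Helper91.S0010.FTBridge

/-!
# S0010, CHAIN: the hom statement (E)

`exists_hom_of_isCompatible`: under the frozen hypotheses, a compatible `Θ` is induced, up to a
non-zero scalar, by a ring homomorphism `K →+* L`.

Path: J1 (`lineAt_lift`) → helper47's `exists_normalisation` (global exponent, `m = 1`)
→ helper50's `AssemblyData.exists_ringHom` → helper88's `cls_eq_smul_of_lift`.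
-/

set_option autoImplicit false
open Crest.NumberTheoryR.MilnorK

namespace Crest.Agent.Helper98.S0010

open Crest.Agent.Helper31.S0010 Crest.Agent.Helper88.S0010

theorem exists_hom_of_isCompatible {p : ℕ} [Fact p.Prime]
    {K : Type*} {L : Type*} [Field K] [Field L] [CharP K p] [CharP L p]
    (k : Subfield K) (l : Subfield L) [IsAlgClosed k] [IsAlgClosed l]
    (hK : ∃ s : Finset K, Subfield.closure ((k : Set K) ∪ (s : Set K)) = ⊤)
    (hL : ∃ s : Finset L, Subfield.closure ((l : Set L) ∪ (s : Set L)) = ⊤)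
    (hK2 : 2 ≤ Algebra.trdeg k K) (hL2 : 2 ≤ Algebra.trdeg l L)
    (Θ : KOne K p ≃ₗ[ZMod p] KOne L p) (hΘ : IsCompatible Θ) :
    ∃ α : K →+* L, ∃ c : ZMod p, c ≠ 0 ∧
      ∀ u : Kˣ, Θ (cls K p u) = c • cls L p (Units.map α.toMonoidHom u) := by
  have hp : p.Prime := Fact.out
  -- the representative map and its basic properties, in helper47's shapes
  have T1 : ∀ u : K, u ≠ 0 → lift Θ u ≠ 0 := fun u hu => lift_ne_zero Θ hu
  have T2 : ∀ u v : K, u ≠ 0 → v ≠ 0 →
      Crest.Agent.Helper47.S0010.PRel p (lift Θ (u * v)) (lift Θ u * lift Θ v) :=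
    fun u v hu hv => prel_iff_pPow.1 (lift_mul Θ hu hv)
  have T3 : ∀ u : K, u ≠ 0 → (lift Θ u ∈ pPow (L := L) p ↔ u ∈ pPow (L := K) p) :=
    fun u hu => lift_mem_pPow_iff Θ hu
  have T4 : ∀ y : L, y ≠ 0 → ∃ g : K, g ≠ 0 ∧ Crest.Agent.Helper47.S0010.PRel p (lift Θ g) y := by
    intro y hy
    obtain ⟨g, hg0, hg⟩ := lift_surj Θ hy
    exact ⟨g, hg0, prel_iff_pPow.1 hg⟩
  have hpart : ∀ x : L, x ∉ pPow (L := L) p → ∃ y, y ∉ pAdj p x :=
    fun x _ => Crest.Agent.Helper91.S0010.exists_not_mem_pAdj (p := p) l hL hL2 x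
  have hnp : ∃ x : L, x ∉ pPow (L := L) p :=
    Crest.Agent.Helper91.S0010.exists_not_mem_pPow (p := p) l hL hL2
  have hinf : (pPow (L := K) p : Set K).Infinite :=
    Crest.Agent.Helper91.S0010.pPow_infinite (p := p) k
  have hline : ∀ f g : K, f ≠ 0 → g ≠ 0 → PIndep p (lift Θ f) (lift Θ g) →
      ∃ m : ℕ, 0 < m ∧ m < p ∧ Crest.Agent.Helper47.S0010.LineAt p (lift Θ) m f g :=
    fun f g hf hg hfg => lineAt_lift Θ hΘ hinf hf hg hfg
  obtain ⟨m, m', hm, hmp, hmm, N1, N2, N3, N4, NL, Nback⟩ :=
    Crest.Agent.Helper47.S0010.exists_normalisation T1 T2 T3 T4 hpart hnp hline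
  have hm'0 : m' ≠ 0 := by
    rintro rfl
    rw [mul_zero, Nat.zero_mod] at hmm
    exact zero_ne_one hmm
  -- the normalised representative map
  set s : K → L := fun u => lift Θ u ^ m' with hs
  have hs0 : s 0 = 0 := by simp [hs, hm'0]
  have hAD : Crest.Agent.Helper50.S0010.AssemblyData (pPow (L := K) p) (pPow (L := L) p) s := by
    refine ⟨?_, ?_, ?_, ?_, ?_, ?_, ?_, ?_⟩
    · intro f
      simp only [hs, pow_eq_zero_iff hm'0]
      exact lift_eq_zero_iff Θ
    · intro f g
      by_cases hf : f = 0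
      · rw [hf, zero_mul, hs0, zero_mul]
        exact Crest.Agent.Helper50.S0010.Rel.refl 0
      by_cases hg : g = 0
      · rw [hg, mul_zero, hs0, mul_zero]
        exact Crest.Agent.Helper50.S0010.Rel.refl 0
      exact N2 f g hf hg
    · intro f
      by_cases hf : f = 0
      · rw [hf, hs0]
        exact ⟨fun _ => zero_mem _, fun _ => zero_mem _⟩
      exact N3 f hf
    · intro z
      by_cases hz : z = 0
      · exact ⟨0, by rw [hs0, hz]; exact Crest.Agent.Helper50.S0010.Rel.refl 0⟩
      obtain ⟨g, -, hg⟩ := N4 z hz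
      exact ⟨g, hg⟩
    · intro x w hw hwE
      exact exchange p (pPow p) (pow_mem_pPow p) hw hwE
    · exact hpart
    · exact hnp
    · intro f g hf hg
      have hf0 : f ≠ 0 := by
        rintro rfl
        exact hf (hs0 ▸ zero_mem _)
      have hg0 : g ≠ 0 := by
        rintro rfl
        exact hg (hs0 ▸ zero_mem _)
      have hfK : f ∉ pPow (L := K) p := fun h => hf ((N3 f hf0).2 h)
      obtain ⟨P, Q, lam, hlam, hrel, hsum⟩ := NL f g hf0 hg0 ⟨hf, hg⟩
      have hl0 : lam 0 ∈ pPow (L := L) p := hlam 0 (zero_mem _)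
      refine ⟨P + lam 0, Q - lam 0, fun c => lam c - lam 0, sub_self _, ?_, ?_, ?_, ?_⟩
      · intro c hc
        refine ⟨sub_mem (hlam c hc) hl0, fun h0 => ?_⟩
        have hcc : lam c = lam 0 := sub_eq_zero.1 h0
        have hfc : f + c ≠ 0 := by
          intro h
          apply hfK
          have : f = -c := by linear_combination h
          rw [this]; exact neg_mem hc
        have r1 := (hrel c hc).1
        have r2 := (hrel 0 (zero_mem _)).1
        rw [add_zero] at r2
        rw [hcc] at r1
        have r3 : Crest.Agent.Helper47.S0010.PRel p (s (f + c)) (s f) := r1.trans r2.symm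
        have hd := Crest.Agent.Helper47.S0010.div_mem_of_prel N1 N2 N3 hfc hf0 r3
        by_contra hc0
        apply hfK
        have hcne : c ≠ 0 := hc0
        have e1 : (f + c) / f - 1 = c / f := by
          field_simp
          ring
        have h2 : f = c / ((f + c) / f - 1) := by
          rw [e1]
          field_simp
        rw [h2]
        exact div_mem hc (sub_mem hd (one_mem _))
      · intro c hc
        have := (hrel c hc).1
        have e : P + lam 0 + (lam c - lam 0) = P + lam c := by ring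
        rw [e]; exact this
      · intro c hc
        have := (hrel c hc).2
        have e : Q - lam 0 - (lam c - lam 0) = Q - lam c := by ring
        rw [e]; exact this
      · have e : P + lam 0 + (Q - lam 0) = P + Q := by ring
        rw [e]; exact hsum
  obtain ⟨α, hα⟩ := Crest.Agent.Helper50.S0010.AssemblyData.exists_ringHom hAD
  refine ⟨α, (m : ZMod p), ?_, ?_⟩
  · intro h0
    rw [ZMod.natCast_eq_zero_iff] at h0
    exact Nat.not_dvd_of_pos_of_lt hm hmp h0
  · intro u
    refine cls_eq_smul_of_lift Θ α m (fun v hv => ?_) u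
    exact prel_iff_pPow.2 (Nback v (α v) (hα v))

end Crest.Agent.Helper98.S0010
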