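import Mathlib
import Crest.Prelude.Def_MilnorK
import Crest.Agent.Helper87.S0010.Uniq
import Crest.Agent.Helper91.S0010.FT

/-!
# S0010: the frozen statement from the hom statement (E) for `Θ` and for `Θ.symm`

`result_of_E`: the exact conclusion of `S0010.result` under the frozen hypotheses, given
(E) for `Θ` and (E) for `Θ.symm` as hypotheses.  Uses helper87's `existsUnique_of` (FIN),
helper91's `G1` (non-perfectness) and `map_eq_of_ringEquiv` (G2).
-/

set_option autoImplicit false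
open Crest.NumberTheoryR.MilnorK

namespace Crest.Agent.Helper98.S0010

/-- Non-perfectness from the frozen hypotheses. -/
theorem exists_not_pth_power {p : ℕ} [Fact p.Prime] {K : Type*} [Field K] [CharP K p]
    (k : Subfield K) [IsAlgClosed k]
    (hK : ∃ s : Finset K, Subfield.closure ((k : Set K) ∪ (s : Set K)) = ⊤)
    (hK2 : 2 ≤ Algebra.trdeg k K) : ∃ w : K, ∀ a : K, a ^ p ≠ w := by
  obtain ⟨x, _, hx, _⟩ := Crest.Agent.Helper91.S0010.G1 (p := p) k hK hK2
  exact ⟨x, fun a ha => hx ⟨a, ha⟩⟩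

theorem result_of_E {p : ℕ} [Fact p.Prime]
    {K L : Type*} [Field K] [Field L] [CharP K p] [CharP L p] (k : Subfield K) (l : Subfield L)
    [IsAlgClosed k] [IsAlgClosed l]
    (hK : ∃ s : Finset K, Subfield.closure ((k : Set K) ∪ (s : Set K)) = ⊤)
    (hL : ∃ s : Finset L, Subfield.closure ((l : Set L) ∪ (s : Set L)) = ⊤)
    (hK2 : 2 ≤ Algebra.trdeg k K) (hL2 : 2 ≤ Algebra.trdeg l L)
    (Θ : KOne K p ≃ₗ[ZMod p] KOne L p)
    (hE : ∃ α : K →+* L, ∃ c : ZMod p, c ≠ 0 ∧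
      ∀ u : Kˣ, Θ (cls K p u) = c • cls L p (Units.map α.toMonoidHom u))
    (hE' : ∃ β : L →+* K, ∃ c : ZMod p, c ≠ 0 ∧
      ∀ v : Lˣ, Θ.symm (cls L p v) = c • cls K p (Units.map β.toMonoidHom v)) :
    ∃! α : K ≃+* L, k.map α.toRingHom = l ∧
      ∃ c : ZMod p, c ≠ 0 ∧ ∀ u : Kˣ, Θ (cls K p u) = c • cls L p (Units.map α.toRingHom.toMonoidHom u) :=
  Crest.Agent.Helper87.S0010.existsUnique_of k l Θ
    (exists_not_pth_power k hK hK2) (exists_not_pth_power l hL hL2)
    (fun α => Crest.Agent.Helper91.S0010.map_eq_of_ringEquiv (p := p) k l hK hL α) hE hE'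

end Crest.Agent.Helper98.S0010
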