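import Mathlib
import Crest.Prelude.Def_MilnorK

set_option autoImplicit false
open Crest.NumberTheoryR.MilnorK
open scoped TensorProduct

namespace Crest.Agent.Helper98.S0010

section basic
variable {K : Type*} [Field K] {p : ℕ}

theorem cls_mul (u v : Kˣ) : cls K p (u * v) = cls K p u + cls K p v := rfl

theorem cls_one : cls K p (1 : Kˣ) = 0 := rfl

theorem cls_inv (u : Kˣ) : cls K p u⁻¹ = - cls K p u := rfl

theorem cls_div (u v : Kˣ) : cls K p (u / v) = cls K p u - cls K p v := by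
  rw [div_eq_mul_inv, cls_mul, cls_inv, sub_eq_add_neg]

theorem cls_pow (u : Kˣ) (n : ℕ) : cls K p (u ^ n) = n • cls K p u := rfl

theorem cls_eq_zero_iff (u : Kˣ) : cls K p u = 0 ↔ ∃ w : Kˣ, w ^ p = u := by
  unfold cls
  rw [QuotientAddGroup.eq_zero_iff]
  unfold pMultiples
  rw [AddMonoidHom.mem_range]
  constructor
  · rintro ⟨w, hw⟩
    exact ⟨Additive.toMul w, by simpa using congrArg Additive.toMul hw⟩
  · rintro ⟨w, hw⟩
    exact ⟨Additive.ofMul w, by simp [← hw]⟩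

theorem cls_pow_p (u : Kˣ) : cls K p (u ^ p) = 0 :=
  (cls_eq_zero_iff _).2 ⟨u, rfl⟩

theorem cls_eq_iff (u v : Kˣ) : cls K p u = cls K p v ↔ ∃ w : Kˣ, u = v * w ^ p := by
  rw [← sub_eq_zero, ← cls_div, cls_eq_zero_iff]
  constructor
  · rintro ⟨w, hw⟩
    exact ⟨w, by rw [hw]; simp⟩
  · rintro ⟨w, hw⟩
    exact ⟨w, by rw [hw]; simp⟩

theorem cls_surjective : Function.Surjective (cls K p) := by
  intro x
  induction x using QuotientAddGroup.induction_on with
  | H z => exact ⟨Additive.toMul z, rfl⟩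

theorem natCast_smul_cls (n : ℕ) (u : Kˣ) : (n : ZMod p) • cls K p u = cls K p (u ^ n) := by
  rw [cls_pow, Nat.cast_smul_eq_nsmul]

theorem cls_eq_zero_iff' (u : Kˣ) : cls K p u = 0 ↔ ∃ b : K, b ^ p = (u : K) := by
  rw [cls_eq_zero_iff]
  constructor
  · rintro ⟨w, hw⟩
    exact ⟨w, by rw [← hw]; simp⟩
  · rintro ⟨b, hb⟩
    by_cases hp : p = 0
    · subst hp
      exact ⟨1, by ext; simpa using hb⟩
    have hb0 : b ≠ 0 := by
      rintro rfl
      rw [zero_pow hp] at hb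
      exact u.ne_zero hb.symm
    exact ⟨Units.mk0 b hb0, by ext; simpa using hb⟩

theorem cls_mk0_mul {a b : K} (ha : a ≠ 0) (hb : b ≠ 0) :
    cls K p (Units.mk0 (a * b) (mul_ne_zero ha hb)) =
      cls K p (Units.mk0 a ha) + cls K p (Units.mk0 b hb) := by
  rw [← cls_mul]; congr 1; ext; simp

theorem cls_mk0_pow_p {a : K} (ha : a ≠ 0) :
    cls K p (Units.mk0 (a ^ p) (pow_ne_zero p ha)) = 0 := by
  rw [cls_eq_zero_iff']; exact ⟨a, rfl⟩

end basic

section charp
variable {K : Type*} [Field K] {p : ℕ} [Fact p.Prime]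

theorem zmod_smul_cls (c : ZMod p) (u : Kˣ) : c • cls K p u = cls K p (u ^ c.val) := by
  conv_lhs => rw [← ZMod.natCast_zmod_val c]
  exact natCast_smul_cls _ _

variable [CharP K p]

theorem cls_neg (u : Kˣ) : cls K p (-u) = cls K p u := by
  rw [cls_eq_iff]
  refine ⟨-1, ?_⟩
  ext
  have h := neg_one_pow_char K p
  simp [h]

/-- (St1) `[u] ⊗ [u + d^p]` is a Steinberg element. -/
theorem steinberg_add_pow (u w : Kˣ) (d : K) (hd : d ≠ 0) (h : (w : K) = u + d ^ p) :
    cls K p u ⊗ₜ[ZMod p] cls K p w ∈ steinberg K p := by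
  have hdp : d ^ p ≠ 0 := pow_ne_zero p hd
  have hf : -(u : K) / d ^ p ≠ 0 := div_ne_zero (neg_ne_zero.2 u.ne_zero) hdp
  have hf1 : 1 - -(u : K) / d ^ p ≠ 0 := by
    have : 1 - -(u : K) / d ^ p = (w : K) / d ^ p := by rw [h]; field_simp; ring
    rw [this]; exact div_ne_zero w.ne_zero hdp
  have e1 : cls K p (Units.mk0 _ hf) = cls K p u := by
    rw [cls_eq_iff]
    refine ⟨-(Units.mk0 d hd)⁻¹, ?_⟩
    ext
    have hc := neg_one_pow_char K p
    simp only [Units.val_mk0, Units.val_mul, Units.val_pow_eq_pow_val, Units.val_neg,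
      Units.val_inv_eq_inv_val]
    rw [neg_pow, hc, inv_pow]; field_simp
  have e2 : cls K p (Units.mk0 _ hf1) = cls K p w := by
    rw [cls_eq_iff]
    refine ⟨(Units.mk0 d hd)⁻¹, ?_⟩
    ext
    simp only [Units.val_mk0, Units.val_mul, Units.val_pow_eq_pow_val,
      Units.val_inv_eq_inv_val]
    rw [h, inv_pow]; field_simp; ring
  rw [← e1, ← e2]
  exact Submodule.subset_span ⟨_, hf, hf1, rfl⟩

/-- (St2) `[b/a] ⊗ [(a+b)/a]` is a Steinberg element. -/
theorem steinberg_ratio (a b s : Kˣ) (h : (s : K) = a + b) :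
    cls K p (b / a) ⊗ₜ[ZMod p] cls K p (s / a) ∈ steinberg K p := by
  have hf : -(b : K) / a ≠ 0 := div_ne_zero (neg_ne_zero.2 b.ne_zero) a.ne_zero
  have hf1 : 1 - -(b : K) / a ≠ 0 := by
    have : 1 - -(b : K) / a = (s : K) / a := by rw [h]; field_simp; ring
    rw [this]; exact div_ne_zero s.ne_zero a.ne_zero
  have e1 : cls K p (Units.mk0 _ hf) = cls K p (b / a) := by
    rw [← cls_neg (b / a)]
    congr 1; ext; simp [neg_div]
  have e2 : cls K p (Units.mk0 _ hf1) = cls K p (s / a) := by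
    congr 1; ext
    simp only [Units.val_mk0, Units.val_div_eq_div_val]
    rw [h]; field_simp; ring
  rw [← e1, ← e2]
  exact Submodule.subset_span ⟨_, hf, hf1, rfl⟩

end charp

section compat
variable {K L : Type*} [Field K] [Field L] {p : ℕ}

/-- (Tr) -/
theorem isCompatible_map_mem {Θ : KOne K p ≃ₗ[ZMod p] KOne L p} (hΘ : IsCompatible Θ)
    {t : KOne K p ⊗[ZMod p] KOne K p} (ht : t ∈ steinberg K p) :
    TensorProduct.map Θ.toLinearMap Θ.toLinearMap t ∈ steinberg L p := by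
  unfold IsCompatible at hΘ
  rw [← hΘ]
  exact Submodule.mem_map_of_mem ht

theorem isCompatible_tmul_mem {Θ : KOne K p ≃ₗ[ZMod p] KOne L p} (hΘ : IsCompatible Θ)
    {x y : KOne K p} (ht : x ⊗ₜ[ZMod p] y ∈ steinberg K p) :
    Θ x ⊗ₜ[ZMod p] Θ y ∈ steinberg L p := by
  have := isCompatible_map_mem hΘ ht
  simpa using this

theorem isCompatible_symm {Θ : KOne K p ≃ₗ[ZMod p] KOne L p} (hΘ : IsCompatible Θ) :
    IsCompatible Θ.symm := by
  unfold IsCompatible at hΘ ⊢
  rw [← hΘ, ← Submodule.map_comp, ← TensorProduct.map_comp]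
  simp

end compat

section scale
variable {K L : Type*} [Field K] [Field L] {p : ℕ} [Fact p.Prime]

/-- `c • Θ` as a linear equivalence (for `c ≠ 0`). -/
noncomputable def scaleEquiv (c : ZMod p) (hc : c ≠ 0) (Θ : KOne K p ≃ₗ[ZMod p] KOne L p) :
    KOne K p ≃ₗ[ZMod p] KOne L p :=
  Θ.trans (LinearEquiv.smulOfNeZero (ZMod p) (KOne L p) c hc)

@[simp] theorem scaleEquiv_apply (c : ZMod p) (hc : c ≠ 0) (Θ : KOne K p ≃ₗ[ZMod p] KOne L p)
    (x : KOne K p) : scaleEquiv c hc Θ x = c • Θ x := rfl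

theorem scaleEquiv_toLinearMap (c : ZMod p) (hc : c ≠ 0) (Θ : KOne K p ≃ₗ[ZMod p] KOne L p) :
    (scaleEquiv c hc Θ).toLinearMap = c • Θ.toLinearMap := by
  ext x; rfl

theorem isCompatible_scale (c : ZMod p) (hc : c ≠ 0) {Θ : KOne K p ≃ₗ[ZMod p] KOne L p}
    (hΘ : IsCompatible Θ) : IsCompatible (scaleEquiv c hc Θ) := by
  unfold IsCompatible at hΘ ⊢
  rw [scaleEquiv_toLinearMap, TensorProduct.map_smul_left, TensorProduct.map_smul_right,
    smul_smul, Submodule.map_smul _ _ _ (mul_ne_zero hc hc), hΘ]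

end scale

section lift
variable {K : Type*} [Field K] {p : ℕ} [Fact p.Prime]

/-- K4: a bi-additive map on units with values in a group killed by `p` descends to an additive
map on `KOne ⊗ KOne`. -/
theorem exists_addHom_of_biadditive {A : Type*} [AddCommGroup A] (hA : ∀ a : A, p • a = 0)
    (β : Kˣ → Kˣ → A)
    (hβ1 : ∀ u u' v, β (u * u') v = β u v + β u' v)
    (hβ2 : ∀ u v v', β u (v * v') = β u v + β u v') :
    ∃ Λ : KOne K p ⊗[ZMod p] KOne K p →+ A,
      ∀ u v, Λ (cls K p u ⊗ₜ[ZMod p] cls K p v) = β u v := by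
  -- inner homs
  let β₂ : Kˣ → (Additive Kˣ →+ A) := fun u =>
    AddMonoidHom.mk' (fun v => β u (Additive.toMul v)) (fun v v' => hβ2 u _ _)
  have hker₂ : ∀ u, pMultiples K p ≤ (β₂ u).ker := by
    intro u x hx
    obtain ⟨y, rfl⟩ := hx
    rw [AddMonoidHom.mem_ker]
    change (β₂ u) (p • y) = 0
    rw [map_nsmul]; exact hA _
  let ψ : Kˣ → (KOne K p →+ A) := fun u => QuotientAddGroup.lift (pMultiples K p) (β₂ u) (hker₂ u)
  have hψ : ∀ u v, ψ u (cls K p v) = β u v := fun u v => rfl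
  let Ψ : Additive Kˣ →+ (KOne K p →+ A) :=
    AddMonoidHom.mk' (fun u => ψ (Additive.toMul u)) (by
      intro u u'
      ext v
      change β (Additive.toMul u * Additive.toMul u') _ = β _ _ + β _ _
      exact hβ1 _ _ _)
  have hker : pMultiples K p ≤ Ψ.ker := by
    intro x hx
    obtain ⟨y, rfl⟩ := hx
    rw [AddMonoidHom.mem_ker]
    change Ψ (p • y) = 0
    rw [map_nsmul]
    refine AddMonoidHom.ext fun v => ?_
    change p • (Ψ y v) = 0
    exact hA _
  let Φ : KOne K p →+ (KOne K p →+ A) := QuotientAddGroup.lift (pMultiples K p) Ψ hker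
  have hΦ : ∀ u v, Φ (cls K p u) (cls K p v) = β u v := fun u v => rfl
  have hbal : ∀ (r : ZMod p) (m n : KOne K p), Φ (r • m) n = Φ m (r • n) := by
    intro r m n
    have : NeZero p := ⟨(Fact.out : p.Prime).ne_zero⟩
    rw [← ZMod.natCast_zmod_val r, Nat.cast_smul_eq_nsmul, Nat.cast_smul_eq_nsmul, map_nsmul,
      map_nsmul]
    rfl
  exact ⟨TensorProduct.liftAddHom Φ hbal, fun u v => by
    rw [TensorProduct.liftAddHom_tmul]; exact hΦ u v⟩

/-- Steinberg elements are killed by every bi-additive symbol vanishing on `(f, 1 - f)`. -/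
theorem biadditive_eq_zero_of_mem_steinberg {A : Type*} [AddCommGroup A] (hA : ∀ a : A, p • a = 0)
    (β : Kˣ → Kˣ → A)
    (hβ1 : ∀ u u' v, β (u * u') v = β u v + β u' v)
    (hβ2 : ∀ u v v', β u (v * v') = β u v + β u v')
    (hS : ∀ (f : K) (hf : f ≠ 0) (hf1 : 1 - f ≠ 0), β (Units.mk0 f hf) (Units.mk0 (1 - f) hf1) = 0)
    {u v : Kˣ} (h : cls K p u ⊗ₜ[ZMod p] cls K p v ∈ steinberg K p) : β u v = 0 := by
  obtain ⟨Λ, hΛ⟩ := exists_addHom_of_biadditive hA β hβ1 hβ2
  rw [← hΛ]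
  have key : ∀ t ∈ steinberg K p, Λ t = 0 := by
    intro t ht
    unfold steinberg at ht
    induction ht using Submodule.span_induction with
    | mem x hx =>
      obtain ⟨f, hf, hf1, rfl⟩ := hx
      rw [hΛ]; exact hS f hf hf1
    | zero => exact map_zero _
    | add x y _ _ hx hy => rw [map_add, hx, hy, add_zero]
    | smul r x _ hx =>
      have : NeZero p := ⟨(Fact.out : p.Prime).ne_zero⟩
      rw [← ZMod.natCast_zmod_val r, Nat.cast_smul_eq_nsmul, map_nsmul, hx, smul_zero]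
  exact key _ h

end lift

end Crest.Agent.Helper98.S0010
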