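import Mathlib
import Crest.Prelude.Def_MilnorK
import Crest.Agent.Helper98.S0010.KOne

set_option autoImplicit false
open Crest.NumberTheoryR.MilnorK
open scoped TensorProduct

namespace Crest.Agent.Helper98.S0010

section inj
variable {L : Type*} [Field L] {p : ℕ} [Fact p.Prime] [CharP L p]

/-- The symbol `β(a,b) = (D₁a D₂b - D₂a D₁b)/(ab)` attached to two derivations. -/
noncomputable def dlogSymbol (D₁ D₂ : Derivation ℤ L L) (a b : Lˣ) : L :=
  (D₁ (a : L) * D₂ (b : L) - D₂ (a : L) * D₁ (b : L)) / ((a : L) * (b : L))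

theorem dlogSymbol_mul_left (D₁ D₂ : Derivation ℤ L L) (a a' b : Lˣ) :
    dlogSymbol D₁ D₂ (a * a') b = dlogSymbol D₁ D₂ a b + dlogSymbol D₁ D₂ a' b := by
  unfold dlogSymbol
  have ha := a.ne_zero
  have ha' := a'.ne_zero
  have hb := b.ne_zero
  simp only [Units.val_mul, Derivation.leibniz, smul_eq_mul]
  field_simp
  ring

theorem dlogSymbol_mul_right (D₁ D₂ : Derivation ℤ L L) (a b b' : Lˣ) :
    dlogSymbol D₁ D₂ a (b * b') = dlogSymbol D₁ D₂ a b + dlogSymbol D₁ D₂ a b' := by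
  unfold dlogSymbol
  have ha := a.ne_zero
  have hb' := b'.ne_zero
  have hb := b.ne_zero
  simp only [Units.val_mul, Derivation.leibniz, smul_eq_mul]
  field_simp
  ring

theorem dlogSymbol_steinberg (D₁ D₂ : Derivation ℤ L L) (f : L) (hf : f ≠ 0) (hf1 : 1 - f ≠ 0) :
    dlogSymbol D₁ D₂ (Units.mk0 f hf) (Units.mk0 (1 - f) hf1) = 0 := by
  unfold dlogSymbol
  simp only [Units.val_mk0, map_sub, Derivation.map_one_eq_zero, zero_sub]
  rw [div_eq_zero_iff]; left; ring

/-- If `[u] ⊗ [v]` is in the Steinberg span then the symbol of any two derivations vanishes. -/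
theorem dlogSymbol_eq_zero_of_mem_steinberg (D₁ D₂ : Derivation ℤ L L) {u v : Lˣ}
    (h : cls L p u ⊗ₜ[ZMod p] cls L p v ∈ steinberg L p) : dlogSymbol D₁ D₂ u v = 0 := by
  refine biadditive_eq_zero_of_mem_steinberg (p := p) (A := L) ?_ (dlogSymbol D₁ D₂)
    (dlogSymbol_mul_left D₁ D₂) (dlogSymbol_mul_right D₁ D₂) (dlogSymbol_steinberg D₁ D₂) h
  intro a
  rw [nsmul_eq_mul, CharP.cast_eq_zero, zero_mul]

/-- Jacobian form: if `[u] ⊗ [v]` is Steinberg then `D₁u D₂v = D₂u D₁v` for all derivations. -/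
theorem jacobian_of_mem_steinberg (D₁ D₂ : Derivation ℤ L L) {u v : Lˣ}
    (h : cls L p u ⊗ₜ[ZMod p] cls L p v ∈ steinberg L p) :
    D₁ (u : L) * D₂ (v : L) = D₂ (u : L) * D₁ (v : L) := by
  have h0 := dlogSymbol_eq_zero_of_mem_steinberg D₁ D₂ h
  unfold dlogSymbol at h0
  rw [div_eq_zero_iff] at h0
  rcases h0 with h0 | h0
  · exact sub_eq_zero.1 h0
  · exact absurd h0 (mul_ne_zero u.ne_zero v.ne_zero)

/-- (I), derivation form. -/
theorem not_mem_steinberg_of_derivations (u v : Lˣ) (D₁ D₂ : Derivation ℤ L L)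
    (h11 : D₁ (u : L) = 1) (h12 : D₁ (v : L) = 0) (h21 : D₂ (u : L) = 0) (h22 : D₂ (v : L) = 1) :
    cls L p u ⊗ₜ[ZMod p] cls L p v ∉ steinberg L p := by
  intro h
  have := jacobian_of_mem_steinberg D₁ D₂ h
  rw [h11, h12, h21, h22] at this
  simp at this

end inj

end Crest.Agent.Helper98.S0010
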